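import Vale.Agent.P004.H503.Iface3

/-!
# P004, module R1: orthogonality in the random model
-/

open Real MeasureTheory Set
open scoped ENNReal

namespace P004

namespace H128

/-- the weights are nonnegative -/
lemma wp_nonneg (p : ℕ) (s : SignType) : 0 ≤ wp p s := by
  unfold wp
  split_ifs
  · positivity
  · rcases Nat.eq_zero_or_pos p with rfl | hp
    · norm_num
    · have : (1 : ℝ) / p ≤ 1 := by
        rw [div_le_one (by exact_mod_cast hp)]
        exact_mod_cast hp
      linarith

/-- the local moments -/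
lemma sum_wp (p k : ℕ) : ∑ s : SignType, wp p s * ((s : ℝ)) ^ k =
    if k = 0 then 1 else if Even k then 1 - 1 / (p : ℝ) else 0 := by
  rw [SignType.univ_eq, Finset.sum_insert (by decide), Finset.sum_insert (by decide),
    Finset.sum_singleton]
  unfold wp
  simp only [if_true, SignType.coe_zero, SignType.coe_neg, SignType.coe_one]
  rw [if_neg (by decide), if_neg (by decide)]
  by_cases hk : k = 0
  · subst hk
    simp
  · rw [if_neg hk]
    by_cases he : Even k
    · rw [if_pos he, he.neg_one_pow, zero_pow hk, one_pow]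
      ring
    · rw [if_neg he, (Nat.not_even_iff_odd.1 he).neg_one_pow, zero_pow hk, one_pow]
      ring

/-- expectation of a product of functions of the independent values -/
lemma EN_prod (N : ℕ) (F : Fin N → SignType → ℝ) :
    ∑ ω : Fin N → SignType, (∏ i : Fin N, wp i (ω i)) * ∏ i : Fin N, F i (ω i) =
      ∏ i : Fin N, ∑ s : SignType, wp i s * F i s := by
  rw [Finset.prod_univ_sum]
  simp only [Fintype.piFinset_univ]
  exact Finset.sum_congr rfl fun ω _ => by rw [Finset.prod_mul_distrib]

lemma sum_wp_prod (N : ℕ) :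
    ∑ ω : Fin N → SignType, (∏ i : Fin N, wp i (ω i)) = 1 := by
  have := EN_prod N (fun _ _ => 1)
  simp only [Finset.prod_const_one, mul_one] at this
  rw [this]
  refine Finset.prod_eq_one fun i _ => ?_
  have := sum_wp i 0
  simpa using this

lemma Xf_eq {N : ℕ} (ω : Fin N → SignType) {n : ℕ} (hn : n ∈ Nat.smoothNumbers N) :
    Xf ω n = ∏ i : Fin N, ((ω i : SignType) : ℝ) ^ n.factorization i := by
  have hn0 : n ≠ 0 := Nat.ne_zero_of_mem_smoothNumbers hn
  unfold Xf
  have h1 : ∏ p ∈ n.primeFactors,
      (if h : p < N then ((ω ⟨p, h⟩ : SignType) : ℝ) else 0) ^ n.factorization p =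
      ∏ p ∈ Finset.range N,
      (if h : p < N then ((ω ⟨p, h⟩ : SignType) : ℝ) else 0) ^ n.factorization p := by
    refine Finset.prod_subset (fun p hp => ?_) fun p _ hp => ?_
    · rw [Finset.mem_range]
      exact hn.2 p (Nat.mem_primeFactorsList'.2 ((Nat.mem_primeFactors.1 hp)))
    · rw [Finsupp.notMem_support_iff.1 (by rwa [Nat.support_factorization]), pow_zero]
  rw [h1, Finset.prod_range]
  refine Finset.prod_congr rfl fun i _ => ?_
  rw [dif_pos i.2]

lemma Xf_eq_zero {N : ℕ} (ω : Fin N → SignType) {n : ℕ} (hn0 : n ≠ 0)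
    (hn : n ∉ Nat.smoothNumbers N) : Xf ω n = 0 := by
  unfold Xf
  have h1 : ∃ p ∈ n.primeFactors, ¬ p < N := by
    by_contra h
    push Not at h
    exact hn ⟨hn0, fun p hp => h p (Nat.mem_primeFactors.2 (Nat.mem_primeFactorsList'.1 hp))⟩
  obtain ⟨p, hp, hpN⟩ := h1
  refine Finset.prod_eq_zero hp ?_
  rw [dif_neg hpN]
  refine zero_pow ?_
  rw [← Nat.support_factorization] at hp
  exact Finsupp.mem_support_iff.1 hp

lemma isSquare_iff_even_factorization {n : ℕ} (hn : n ≠ 0) :
    IsSquare n ↔ ∀ p, Even (n.factorization p) := by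
  constructor
  · rintro ⟨a, rfl⟩ p
    have ha : a ≠ 0 := by rintro rfl; simp at hn
    rw [Nat.factorization_mul ha ha]
    exact ⟨_, rfl⟩
  · intro h
    refine ⟨∏ p ∈ n.primeFactors, p ^ (n.factorization p / 2), ?_⟩
    rw [← Finset.prod_mul_distrib]
    conv_lhs => rw [← Nat.prod_factorization_pow_eq_self hn, Finsupp.prod,
      Nat.support_factorization]
    refine Finset.prod_congr rfl fun p _ => ?_
    rw [← pow_add]
    congr 1
    obtain ⟨k, hk⟩ := h p
    omega

end H128

open H128 in
/-- Module R1. -/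
theorem pfOrth : StOrth := by
  intro N n hn
  have hn0 : n ≠ 0 := Nat.ne_zero_of_mem_smoothNumbers hn
  unfold EN
  simp only [Xf_eq _ hn]
  rw [EN_prod N (fun i s => (s : ℝ) ^ n.factorization i)]
  simp only [sum_wp]
  unfold rho
  rw [Finset.prod_congr rfl (g := fun i : Fin N => (fun p : ℕ => if n.factorization p = 0 then 1
    else if Even (n.factorization p) then 1 - 1 / (p : ℝ) else 0) i) fun i _ => rfl,
    ← Finset.prod_range (fun p : ℕ => if n.factorization p = 0 then (1 : ℝ)
    else if Even (n.factorization p) then 1 - 1 / (p : ℝ) else 0)]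
  have h1 : ∏ p ∈ Finset.range N, (if n.factorization p = 0 then (1 : ℝ)
    else if Even (n.factorization p) then 1 - 1 / (p : ℝ) else 0) =
      ∏ p ∈ n.primeFactors, (if n.factorization p = 0 then (1 : ℝ)
    else if Even (n.factorization p) then 1 - 1 / (p : ℝ) else 0) := by
    symm
    refine Finset.prod_subset (fun p hp => ?_) fun p _ hp => ?_
    · rw [Finset.mem_range]
      exact hn.2 p (Nat.mem_primeFactorsList'.2 ((Nat.mem_primeFactors.1 hp)))
    · rw [if_pos (Finsupp.notMem_support_iff.1 (by rwa [Nat.support_factorization]))]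
  rw [h1]
  have h2 : ∀ p ∈ n.primeFactors, n.factorization p ≠ 0 := fun p hp => by
    rw [← Nat.support_factorization] at hp
    exact Finsupp.mem_support_iff.1 hp
  split_ifs with h
  · refine Finset.prod_congr rfl fun p hp => ?_
    rw [if_neg (h2 p hp), if_pos ((isSquare_iff_even_factorization hn0).1 h.2 p)]
  · have h3 : ¬ ∀ p, Even (n.factorization p) := fun h4 =>
      h ⟨hn0, (isSquare_iff_even_factorization hn0).2 h4⟩
    push Not at h3
    obtain ⟨p, hp⟩ := h3
    have hp0 : n.factorization p ≠ 0 := by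
      rintro h5
      rw [h5] at hp
      exact hp ⟨0, rfl⟩
    have hpm : p ∈ n.primeFactors := by
      rw [← Nat.support_factorization]
      exact Finsupp.mem_support_iff.2 hp0
    refine Finset.prod_eq_zero hpm ?_
    rw [if_neg hp0, if_neg (by simpa using hp)]

end P004
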