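import Vale.Agent.P004.H128.Orth

/-!
# P004, module P1 (part 1): the random characters and their Euler products
-/

open Real MeasureTheory Set Filter Topology
open scoped ENNReal

namespace P004

namespace H128

/-- the value at the prime `p` -/
noncomputable def vX {N : ℕ} (ω : Fin N → SignType) (p : ℕ) : ℝ :=
  if h : p < N then ((ω ⟨p, h⟩ : SignType) : ℝ) else 0

lemma Xf_def {N : ℕ} (ω : Fin N → SignType) (n : ℕ) :
    Xf ω n = n.factorization.prod fun p k => vX ω p ^ k := rfl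

lemma Xf_one {N : ℕ} (ω : Fin N → SignType) : Xf ω 1 = 1 := by
  rw [Xf_def]
  simp

lemma Xf_mul {N : ℕ} (ω : Fin N → SignType) {a b : ℕ} (ha : a ≠ 0) (hb : b ≠ 0) :
    Xf ω (a * b) = Xf ω a * Xf ω b := by
  rw [Xf_def, Xf_def, Xf_def, Nat.factorization_mul ha hb,
    Finsupp.prod_add_index' (fun _ => pow_zero _) (fun _ _ _ => pow_add _ _ _)]

lemma Xf_pow {N : ℕ} (ω : Fin N → SignType) {a : ℕ} (ha : a ≠ 0) (k : ℕ) :
    Xf ω (a ^ k) = Xf ω a ^ k := by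
  induction k with
  | zero => rw [pow_zero, pow_zero, Xf_one]
  | succ k ih => rw [pow_succ, pow_succ, Xf_mul ω (pow_ne_zero _ ha) ha, ih]

lemma Xf_CM {N : ℕ} (ω : Fin N → SignType) : CM (Xf ω) :=
  ⟨Xf_one ω, fun _ _ ha hb => Xf_mul ω ha hb⟩

lemma abs_vX_le {N : ℕ} (ω : Fin N → SignType) (p : ℕ) : |vX ω p| ≤ 1 := by
  unfold vX
  split_ifs with h
  · rcases (ω ⟨p, h⟩) with _ | _ | _ <;> simp
  · simp

lemma abs_Xf_le {N : ℕ} (ω : Fin N → SignType) (n : ℕ) : |Xf ω n| ≤ 1 := by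
  rw [Xf_def, Finsupp.prod, Finset.abs_prod]
  refine Finset.prod_le_one (fun _ _ => abs_nonneg _) fun p _ => ?_
  rw [abs_pow]
  exact pow_le_one₀ (abs_nonneg _) (abs_vX_le ω p)

/-! ### the expectation -/

lemma wprod_nonneg {N : ℕ} (ω : Fin N → SignType) : 0 ≤ ∏ i : Fin N, wp i (ω i) :=
  Finset.prod_nonneg fun _ _ => wp_nonneg _ _

lemma EN_mono {N : ℕ} {F G : (ℕ → ℝ) → ℝ} (h : ∀ ω : Fin N → SignType, F (Xf ω) ≤ G (Xf ω)) :
    EN N F ≤ EN N G := by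
  unfold EN
  exact Finset.sum_le_sum fun ω _ => mul_le_mul_of_nonneg_left (h ω) (wprod_nonneg ω)

lemma EN_congr {N : ℕ} {F G : (ℕ → ℝ) → ℝ} (h : ∀ ω : Fin N → SignType, F (Xf ω) = G (Xf ω)) :
    EN N F = EN N G := by
  unfold EN
  exact Finset.sum_congr rfl fun ω _ => by rw [h ω]

lemma EN_nonneg {N : ℕ} {F : (ℕ → ℝ) → ℝ} (h : ∀ ω : Fin N → SignType, 0 ≤ F (Xf ω)) :
    0 ≤ EN N F := by
  unfold EN
  exact Finset.sum_nonneg fun ω _ => mul_nonneg (wprod_nonneg ω) (h ω)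

lemma EN_const_mul (N : ℕ) (c : ℝ) (F : (ℕ → ℝ) → ℝ) : EN N (fun X => c * F X) = c * EN N F := by
  unfold EN
  rw [Finset.mul_sum]
  exact Finset.sum_congr rfl fun ω _ => by ring

lemma EN_sum {ι : Type*} (N : ℕ) (s : Finset ι) (F : ι → (ℕ → ℝ) → ℝ) :
    EN N (fun X => ∑ i ∈ s, F i X) = ∑ i ∈ s, EN N (F i) := by
  unfold EN
  simp only [Finset.mul_sum]
  exact Finset.sum_comm

lemma EN_integral {N : ℕ} {F : (ℕ → ℝ) → ℝ → ℝ}
    (h : ∀ ω : Fin N → SignType, Integrable (F (Xf ω))) :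
    EN N (fun X => ∫ τ, F X τ) = ∫ τ, EN N (fun X => F X τ) := by
  unfold EN
  rw [integral_finsetSum _ fun ω _ => (h ω).const_mul _]
  exact Finset.sum_congr rfl fun ω _ => by rw [integral_const_mul]

lemma EN_integrable {N : ℕ} {F : (ℕ → ℝ) → ℝ → ℝ}
    (h : ∀ ω : Fin N → SignType, Integrable (F (Xf ω))) :
    Integrable (fun τ => EN N (fun X => F X τ)) := by
  unfold EN
  exact integrable_finsetSum _ fun ω _ => (h ω).const_mul _

lemma EN_tsum {ι : Type*} {N : ℕ} {F : ι → (ℕ → ℝ) → ℝ}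
    (h : ∀ ω : Fin N → SignType, Summable fun i => F i (Xf ω)) :
    EN N (fun X => ∑' i, F i X) = ∑' i, EN N (F i) := by
  unfold EN
  rw [Summable.tsum_finsetSum fun ω _ => (h ω).mul_left _]
  exact Finset.sum_congr rfl fun ω _ => by rw [tsum_mul_left]

/-! ### the Dirichlet series of a random character -/

/-- the terms of the Dirichlet series -/
noncomputable def ds (X : ℕ → ℝ) (s : ℂ) (n : ℕ) : ℂ := (ca n : ℂ) * (X n : ℂ) * (n : ℂ) ^ (-s)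

lemma ds_zero (hc : StCoef) (X : ℕ → ℝ) (s : ℂ) : ds X s 0 = 0 := by
  unfold ds
  rw [hc.zero]
  simp

lemma ds_one (hc : StCoef) {N : ℕ} (ω : Fin N → SignType) (s : ℂ) : ds (Xf ω) s 1 = 1 := by
  unfold ds
  rw [hc.one, Xf_one]
  simp

lemma ds_mul (hc : StCoef) {N : ℕ} (ω : Fin N → SignType) (s : ℂ) {m n : ℕ}
    (h : Nat.Coprime m n) : ds (Xf ω) s (m * n) = ds (Xf ω) s m * ds (Xf ω) s n := by
  rcases Nat.eq_zero_or_pos m with rfl | hm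
  · rw [zero_mul, ds_zero hc, zero_mul]
  rcases Nat.eq_zero_or_pos n with rfl | hn
  · rw [mul_zero, ds_zero hc, mul_zero]
  unfold ds
  rw [hc.mul m n h, Xf_mul ω hm.ne' hn.ne', Nat.cast_mul, Complex.natCast_mul_natCast_cpow]
  push_cast
  ring

lemma ds_pow {N : ℕ} (ω : Fin N → SignType) (s : ℂ) {p : ℕ} (hp : p ≠ 0) (e : ℕ) :
    ds (Xf ω) s (p ^ e) = (ca (p ^ e) : ℂ) * ((Xf ω p : ℂ) * (p : ℂ) ^ (-s)) ^ e := by
  unfold ds
  rw [Xf_pow ω hp]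
  have h2 : ((p ^ e : ℕ) : ℂ) ^ (-s) = ((p : ℂ) ^ (-s)) ^ e := by
    rw [Nat.cast_pow, ← Complex.natCast_cpow_natCast_mul p e (-s), Complex.cpow_nat_mul]
  rw [h2]
  push_cast
  ring

/-- the coefficients at powers of `2` -/
lemma ca_two_pow (hc : StCoef) {e : ℕ} (he : e ≠ 0) : ca (2 ^ e) = 0 := by
  refine hc.mod_four _ ?_
  obtain ⟨k, rfl⟩ := Nat.exists_eq_succ_of_ne_zero he
  rw [pow_succ]
  omega

lemma dv_pow {p : ℕ} (hp : p.Prime) (e : ℕ) : dv (p ^ e) = e + 1 := by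
  unfold dv
  rw [Nat.divisors_prime_pow hp, Finset.card_map, Finset.card_range]
  push_cast
  ring

lemma norm_ds_pow_le (hc : StCoef) {N : ℕ} (ω : Fin N → SignType) (s : ℂ) {p : ℕ} (hp : p.Prime)
    (e : ℕ) : ‖ds (Xf ω) s (p ^ e)‖ ≤ (e + 1) * ((p : ℝ) ^ (1 / 2 - s.re)) ^ e := by
  have hp0 : (0 : ℝ) < p := by exact_mod_cast hp.pos
  rw [ds_pow ω s hp.ne_zero, norm_mul, norm_pow, norm_mul]
  have h1 : ‖((ca (p ^ e) : ℤ) : ℂ)‖ ≤ (e + 1) * ((p : ℝ) ^ (1 / 2 : ℝ)) ^ e := by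
    rw [Complex.norm_intCast]
    refine (hc.bound _).trans (le_of_eq ?_)
    rw [dv_pow hp, Nat.cast_pow, Real.sqrt_eq_rpow, ← Real.rpow_natCast,
      ← Real.rpow_mul hp0.le, ← Real.rpow_natCast ((p : ℝ) ^ (1 / 2 : ℝ)),
      ← Real.rpow_mul hp0.le, mul_comm (e : ℝ)]
  have h2 : ‖((Xf ω p : ℝ) : ℂ)‖ * ‖(p : ℂ) ^ (-s)‖ ≤ (p : ℝ) ^ (-s.re) := by
    rw [Complex.norm_real, Real.norm_eq_abs, Complex.norm_natCast_cpow_of_pos hp.pos,
      Complex.neg_re]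
    exact mul_le_of_le_one_left (by positivity) (abs_Xf_le ω p)
  calc ‖((ca (p ^ e) : ℤ) : ℂ)‖ * (‖((Xf ω p : ℝ) : ℂ)‖ * ‖(p : ℂ) ^ (-s)‖) ^ e
      ≤ ((e + 1) * ((p : ℝ) ^ (1 / 2 : ℝ)) ^ e) * ((p : ℝ) ^ (-s.re)) ^ e := by
        gcongr
    _ = (e + 1) * ((p : ℝ) ^ (1 / 2 - s.re)) ^ e := by
        rw [mul_assoc, ← mul_pow, ← Real.rpow_add hp0]
        ring_nf

lemma ratio_lt_one {p : ℕ} (hp : p.Prime) {s : ℂ} (hs : 1 / 2 < s.re) :
    (p : ℝ) ^ (1 / 2 - s.re) < 1 :=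
  Real.rpow_lt_one_of_one_lt_of_neg (by exact_mod_cast hp.one_lt) (by linarith)

lemma summable_ds_pow (hc : StCoef) {N : ℕ} (ω : Fin N → SignType) {s : ℂ} (hs : 1 / 2 < s.re)
    {p : ℕ} (hp : p.Prime) : Summable fun e : ℕ => ‖ds (Xf ω) s (p ^ e)‖ := by
  have hp0 : (0 : ℝ) < p := by exact_mod_cast hp.pos
  have hr := ratio_lt_one hp hs
  have hr0 : 0 ≤ (p : ℝ) ^ (1 / 2 - s.re) := by positivity
  have h1 := summable_pow_mul_geometric_of_norm_lt_one 1 (R := ℝ)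
    (r := (p : ℝ) ^ (1 / 2 - s.re)) (by rwa [Real.norm_of_nonneg hr0])
  have h2 := summable_geometric_of_lt_one hr0 hr
  refine Summable.of_nonneg_of_le (fun _ => norm_nonneg _)
    (fun e => norm_ds_pow_le hc ω s hp e) ((h1.add h2).congr fun e => ?_)
  simp only [pow_one]
  ring

/-- the local factor -/
lemma tsum_ds_pow (hc : StCoef) {N : ℕ} (ω : Fin N → SignType) {s : ℂ} (hs : 1 / 2 < s.re)
    {p : ℕ} (hp : p.Prime) : ∑' e : ℕ, ds (Xf ω) s (p ^ e) = if p = 2 then 1 else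
      (1 - (ca p : ℂ) * (Xf ω p : ℂ) * (p : ℂ) ^ (-s) +
        (Xf ω p : ℂ) ^ 2 * (p : ℂ) ^ (1 - 2 * s))⁻¹ := by
  split_ifs with h2
  · subst h2
    rw [tsum_eq_single 0]
    · rw [pow_zero, ds_one hc]
    · intro e he
      rw [ds_pow ω s (by norm_num), ca_two_pow hc he]
      simp
  have hsum : Summable fun e : ℕ => ds (Xf ω) s (p ^ e) :=
    (summable_ds_pow hc ω hs hp).of_norm
  set x : ℂ := (Xf ω p : ℂ) * (p : ℂ) ^ (-s) with hx
  have hf : ∀ e, ds (Xf ω) s (p ^ e) = (ca (p ^ e) : ℂ) * x ^ e := fun e =>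
    ds_pow ω s hp.ne_zero e
  simp only [hf] at hsum ⊢
  set S : ℂ := ∑' e : ℕ, (ca (p ^ e) : ℂ) * x ^ e with hS
  have hs1 : Summable fun e : ℕ => (ca (p ^ (e + 1)) : ℂ) * x ^ (e + 1) :=
    (summable_nat_add_iff 1).2 hsum
  have h1 : S = 1 + ∑' e : ℕ, (ca (p ^ (e + 1)) : ℂ) * x ^ (e + 1) := by
    rw [hS, hsum.tsum_eq_zero_add]
    rw [pow_zero, hc.one]
    simp
  have h3 : ∑' e : ℕ, (ca (p ^ (e + 1)) : ℂ) * x ^ (e + 1) =
      ca p * x + ∑' e : ℕ, (ca (p ^ (e + 2)) : ℂ) * x ^ (e + 2) := by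
    rw [hs1.tsum_eq_zero_add]
    simp
  have h4 : ∑' e : ℕ, (ca (p ^ (e + 2)) : ℂ) * x ^ (e + 2) =
      ca p * x * (∑' e : ℕ, (ca (p ^ (e + 1)) : ℂ) * x ^ (e + 1)) - p * x ^ 2 * S := by
    rw [hS, ← tsum_mul_left, ← tsum_mul_left, ← Summable.tsum_sub (hs1.mul_left _)
      (hsum.mul_left _)]
    refine tsum_congr fun e => ?_
    rw [hc.hecke p e hp h2]
    push_cast
    ring
  have h5 : S * (1 - ca p * x + p * x ^ 2) = 1 := by
    have e1 : ∑' e : ℕ, (ca (p ^ (e + 1)) : ℂ) * x ^ (e + 1) = S - 1 := by rw [h1]; ring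
    rw [e1] at h3 h4
    rw [h4] at h3
    linear_combination h3
  have h6 : (1 - (ca p : ℂ) * (Xf ω p : ℂ) * (p : ℂ) ^ (-s) +
      (Xf ω p : ℂ) ^ 2 * (p : ℂ) ^ (1 - 2 * s)) = 1 - ca p * x + p * x ^ 2 := by
    have hp0 : (p : ℂ) ≠ 0 := by exact_mod_cast hp.ne_zero
    have e1 : (p : ℂ) ^ (1 - 2 * s) = p * ((p : ℂ) ^ (-s)) ^ 2 := by
      rw [← Complex.cpow_nat_mul, show (1 - 2 * s : ℂ) = 1 + ((2 : ℕ) : ℂ) * (-s) by push_cast; ring,
        Complex.cpow_add _ _ hp0, Complex.cpow_one]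
    rw [e1, hx]
    ring
  rw [h6]
  exact eq_inv_of_mul_eq_one_left h5

lemma ds_hasSum (hc : StCoef) {N : ℕ} (ω : Fin N → SignType) {s : ℂ} (hs : 1 / 2 < s.re) :
    Summable (fun m : N.smoothNumbers => ‖ds (Xf ω) s m‖) ∧
      HasSum (fun m : N.smoothNumbers => ds (Xf ω) s m) (LN N (Xf ω) s) := by
  have h := EulerProduct.summable_and_hasSum_smoothNumbers_prod_primesBelow_tsum
    (f := ds (Xf ω) s) (ds_one hc ω s) (fun {m n} hmn => ds_mul hc ω s hmn)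
    (fun {p} hp => summable_ds_pow hc ω hs hp) N
  refine ⟨h.1, ?_⟩
  have h2 : LN N (Xf ω) s = ∏ p ∈ N.primesBelow, ∑' n : ℕ, ds (Xf ω) s (p ^ n) := by
    unfold LN
    refine Finset.prod_congr rfl fun p hp => ?_
    rw [tsum_ds_pow hc ω hs (Nat.prime_of_mem_primesBelow hp)]
  rw [h2]
  exact h.2

/-- the same over all integers -/
lemma summable_ds (hc : StCoef) {N : ℕ} (ω : Fin N → SignType) {s : ℂ} (hs : 1 / 2 < s.re) :
    Summable (fun m : ℕ => ‖ds (Xf ω) s m‖) := by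
  have h := (summable_subtype_iff_indicator (f := fun m : ℕ => ‖ds (Xf ω) s m‖)
    (s := N.smoothNumbers)).1 (ds_hasSum hc ω hs).1
  refine h.congr fun n => ?_
  by_cases hn : n ∈ N.smoothNumbers
  · rw [Set.indicator_of_mem hn]
  · rw [Set.indicator_of_notMem hn]
    rcases Nat.eq_zero_or_pos n with rfl | hn0
    · rw [ds_zero hc]; simp
    · unfold ds
      rw [Xf_eq_zero ω hn0.ne' hn]
      simp

lemma tsum_ds (hc : StCoef) {N : ℕ} (ω : Fin N → SignType) {s : ℂ} (hs : 1 / 2 < s.re) :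
    ∑' m : ℕ, ds (Xf ω) s m = LN N (Xf ω) s := by
  have h := (ds_hasSum hc ω hs).2.tsum_eq
  rw [← h, tsum_subtype (s := N.smoothNumbers) (f := fun m => ds (Xf ω) s m)]
  refine tsum_congr fun n => ?_
  by_cases hn : n ∈ N.smoothNumbers
  · rw [Set.indicator_of_mem hn]
  · rw [Set.indicator_of_notMem hn]
    rcases Nat.eq_zero_or_pos n with rfl | hn0
    · rw [ds_zero hc]
    · unfold ds
      rw [Xf_eq_zero ω hn0.ne' hn]
      simp

end H128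

end P004
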