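import Vale.Agent.P004.H128.Pass1

/-!
# P004, module P1 (part 2): the Mellin formula for the coefficients `bet`
-/

open Real MeasureTheory Set Filter Topology
open scoped ENNReal

namespace P004

namespace H128

/-! ### a bound for `bet` -/

lemma integrable_exp_mul {c : ℝ} (hc : 0 < c) : IntegrableOn (fun u : ℝ => rexp (-c * u)) (Ioi 0) :=
  exp_neg_integrableOn_Ioi 0 hc

lemma integral_exp_mul {c : ℝ} (hc : 0 < c) : ∫ u in Ioi (0 : ℝ), rexp (-c * u) = 1 / c := by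
  rw [integral_exp_mul_Ioi (a := -c) (by linarith) 0]
  simp

lemma abs_bet_le (hC : StCoef) {f : ℝ → ℝ} {U b : ℝ} (hb : ∀ u, 0 < u → |f u| ≤ b)
    (hfU : ∀ u, 0 < u → u < U → f u = 0) (n : ℕ) :
    |bet f n| ≤ 4 * b * ((n : ℝ) ^ 1 * rexp (-(π * U / 2) * n)) := by
  have hb0 : 0 ≤ b := (abs_nonneg _).trans (hb 1 one_pos)
  rcases Nat.eq_zero_or_pos n with rfl | hn
  · unfold bet
    rw [hC.zero]
    simp
  have hn0 : (0 : ℝ) < n := by exact_mod_cast hn
  have h1 : ‖∫ u in Ioi (0 : ℝ), rexp (-π * n * u) * f u‖ ≤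
      ∫ u in Ioi (0 : ℝ), b * rexp (-(π * U / 2) * n) * rexp (-(π * n / 2) * u) := by
    refine norm_integral_le_of_norm_le ((integrable_exp_mul (by positivity)).const_mul _) ?_
    filter_upwards [ae_restrict_mem measurableSet_Ioi] with u hu0
    have hu0' : (0 : ℝ) < u := hu0
    rw [norm_mul, Real.norm_eq_abs, Real.norm_eq_abs, abs_of_pos (Real.exp_pos _)]
    by_cases hu : u < U
    · rw [hfU u hu0' hu]
      simp only [abs_zero, mul_zero]
      positivity
    · push Not at hu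
      have e1 : rexp (-π * n * u) = rexp (-(π * n / 2) * u) * rexp (-(π * n / 2) * u) := by
        rw [← Real.exp_add]
        ring_nf
      have e2 : rexp (-(π * n / 2) * u) ≤ rexp (-(π * U / 2) * n) := by
        apply Real.exp_le_exp.2
        have : π * n * U ≤ π * n * u := by gcongr
        linarith
      calc rexp (-π * n * u) * |f u| ≤
          (rexp (-(π * U / 2) * n) * rexp (-(π * n / 2) * u)) * b := by
            rw [e1]
            gcongr
            exact hb u hu0'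
        _ = _ := by ring
  rw [integral_const_mul, integral_exp_mul (by positivity)] at h1
  unfold bet
  rw [abs_mul, abs_mul, abs_of_pos (by norm_num : (0 : ℝ) < 4), ← Real.norm_eq_abs (∫ u in _, _)]
  have h2 : 1 / (π * n / 2) ≤ 1 / (n : ℝ) := by
    apply one_div_le_one_div_of_le hn0
    have := Real.pi_gt_three
    nlinarith
  calc 4 * |(ca n : ℝ)| * ‖∫ u in Ioi (0 : ℝ), rexp (-π * n * u) * f u‖ ≤
        4 * (n : ℝ) ^ 2 * (b * rexp (-(π * U / 2) * n) * (1 / (n : ℝ))) := by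
        gcongr
        · exact H1.abs_ca_le hC n
        · exact h1.trans (by gcongr)
    _ = 4 * b * ((n : ℝ) ^ 1 * rexp (-(π * U / 2) * n)) := by
        field_simp

lemma summable_bet (hC : StCoef) {f : ℝ → ℝ} {U b : ℝ} (hU : 0 < U)
    (hb : ∀ u, 0 < u → |f u| ≤ b) (hfU : ∀ u, 0 < u → u < U → f u = 0) :
    Summable fun n => |bet f n| := by
  have h1 := Real.summable_pow_mul_exp_neg_nat_mul 1 (r := π * U / 2) (by positivity)
  exact Summable.of_nonneg_of_le (fun _ => abs_nonneg _) (abs_bet_le hC hb hfU)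
    (h1.mul_left (4 * b))

/-! ### the Mellin formula -/

/-- `s = 1 + σ + iτ` -/
noncomputable def sl (σ τ : ℝ) : ℂ := 1 + σ + τ * Complex.I

lemma sl_re (σ τ : ℝ) : (sl σ τ).re = 1 + σ := by
  unfold sl
  simp

/-- the kernel -/
noncomputable def Kf (Y : ℕ) (σ : ℝ) (g : ℝ → ℂ) (τ : ℝ) : ℂ :=
  g τ * ((Y : ℂ) ^ (sl σ τ - 1) * Complex.Gamma (sl σ τ) * (π : ℂ) ^ (-sl σ τ))

/-- `Γ ≤ 2` on `[1, 3]` -/
lemma Gamma_le_two {σ : ℝ} (h0 : 0 < σ) (h1 : σ ≤ 2) : Real.Gamma (1 + σ) ≤ 2 := by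
  have h := Real.convexOn_Gamma.2 (show (1 : ℝ) ∈ Ioi 0 by simp) (show (3 : ℝ) ∈ Ioi 0 by simp)
    (show 0 ≤ 1 - σ / 2 by linarith) (show 0 ≤ σ / 2 by linarith) (by ring)
  have h3 : Real.Gamma 3 = 2 := by
    have := Real.Gamma_nat_eq_factorial 2
    norm_num [Nat.factorial] at this ⊢
  simp only [smul_eq_mul, Real.Gamma_one, h3] at h
  rw [show (1 - σ / 2) * 1 + σ / 2 * 3 = 1 + σ by ring] at h
  linarith

lemma norm_Gamma_le {s : ℂ} (hs : 0 < s.re) : ‖Complex.Gamma s‖ ≤ Real.Gamma s.re := by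
  rw [Complex.Gamma_eq_integral hs, Real.Gamma_eq_integral hs]
  unfold Complex.GammaIntegral
  refine (norm_integral_le_integral_norm _).trans (le_of_eq ?_)
  refine setIntegral_congr_fun measurableSet_Ioi fun x hx => ?_
  have hx' : (0 : ℝ) < x := hx
  simp only [norm_mul, Complex.norm_real, Real.norm_eq_abs, abs_of_pos (Real.exp_pos _)]
  rw [Complex.norm_cpow_eq_rpow_re_of_pos hx']
  simp

lemma norm_Kf_le {Y : ℕ} (hY : 1 ≤ Y) {σ : ℝ} (h0 : 0 < σ) (h1 : σ ≤ 2) (g : ℝ → ℂ) (τ : ℝ) :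
    ‖Kf Y σ g τ‖ ≤ ‖g τ‖ * (Y : ℝ) ^ σ := by
  unfold Kf
  rw [norm_mul, norm_mul, norm_mul]
  have hY0 : 0 < Y := hY
  have e1 : ‖(Y : ℂ) ^ (sl σ τ - 1)‖ = (Y : ℝ) ^ σ := by
    rw [Complex.norm_natCast_cpow_of_pos hY0, Complex.sub_re, sl_re]
    simp
  have e2 : ‖Complex.Gamma (sl σ τ)‖ ≤ 2 := by
    refine (norm_Gamma_le (by rw [sl_re]; linarith)).trans ?_
    rw [sl_re]
    exact Gamma_le_two h0 h1
  have hpi := Real.pi_gt_three
  have e3 : ‖(π : ℂ) ^ (-sl σ τ)‖ ≤ 1 / 2 := by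
    rw [Complex.norm_cpow_eq_rpow_re_of_pos Real.pi_pos, Complex.neg_re, sl_re]
    calc π ^ (-(1 + σ)) ≤ π ^ (-1 : ℝ) :=
          Real.rpow_le_rpow_of_exponent_le (by linarith) (by linarith)
      _ = 1 / π := by rw [Real.rpow_neg_one, one_div]
      _ ≤ 1 / 2 := one_div_le_one_div_of_le (by norm_num) (by linarith)
  rw [e1]
  have hYp : 0 ≤ (Y : ℝ) ^ σ := by positivity
  calc ‖g τ‖ * ((Y : ℝ) ^ σ * ‖Complex.Gamma (sl σ τ)‖ * ‖(π : ℂ) ^ (-sl σ τ)‖)
      ≤ ‖g τ‖ * ((Y : ℝ) ^ σ * 2 * (1 / 2)) := by gcongr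
    _ = ‖g τ‖ * (Y : ℝ) ^ σ := by ring

lemma continuous_sl (σ : ℝ) : Continuous (sl σ) := by
  unfold sl
  fun_prop

lemma continuous_Gamma_sl {σ : ℝ} (h0 : 0 < σ) : Continuous fun τ => Complex.Gamma (sl σ τ) := by
  rw [continuous_iff_continuousAt]
  intro τ
  have h1 : DifferentiableAt ℂ Complex.Gamma (sl σ τ) := by
    apply Complex.differentiableAt_Gamma
    intro m hm
    have := congrArg Complex.re hm
    rw [sl_re] at this
    simp at this
    have hm0 : (0 : ℝ) ≤ m := by positivity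
    linarith
  exact ContinuousAt.comp (f := sl σ) h1.continuousAt (continuous_sl σ).continuousAt

lemma continuous_Kf {Y : ℕ} (hY : 1 ≤ Y) {σ : ℝ} (h0 : 0 < σ) {g : ℝ → ℂ} (hg : Continuous g) :
    Continuous (Kf Y σ g) := by
  unfold Kf
  have hY0 : (Y : ℂ) ≠ 0 := by
    have : Y ≠ 0 := by omega
    exact_mod_cast this
  have hpi : (π : ℂ) ≠ 0 := by exact_mod_cast Real.pi_ne_zero
  have h1 := continuous_Gamma_sl h0
  have h2 : Continuous fun τ => (Y : ℂ) ^ (sl σ τ - 1) :=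
    ((continuous_sl σ).sub continuous_const).const_cpow (Or.inl hY0)
  have h3 : Continuous fun τ => (π : ℂ) ^ (-sl σ τ) :=
    (continuous_sl σ).neg.const_cpow (Or.inl hpi)
  exact hg.mul ((h2.mul h1).mul h3)

/-- the inner integral -/
lemma inner_integral {Y : ℕ} (hY : 1 ≤ Y) {σ : ℝ} (h0 : 0 < σ) {n : ℕ} (hn : 1 ≤ n) (τ : ℝ) :
    ∫ u in Ioi (0 : ℝ), ((rexp (-π * n * u) : ℝ) : ℂ) *
        Complex.exp ((sl σ τ - 1) * (Real.log (u * Y) : ℝ)) =
      (Y : ℂ) ^ (sl σ τ - 1) * Complex.Gamma (sl σ τ) * (π : ℂ) ^ (-sl σ τ) *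
        (n : ℂ) ^ (-sl σ τ) := by
  have hY0 : (0 : ℝ) < Y := by exact_mod_cast (by omega : 0 < Y)
  have hn0 : (0 : ℝ) < n := by exact_mod_cast (by omega : 0 < n)
  have hr : 0 < π * n := by positivity
  have h := Complex.integral_cpow_mul_exp_neg_mul_Ioi (a := sl σ τ) (r := π * n)
    (by rw [sl_re]; linarith) hr
  have e1 : ∀ u ∈ Ioi (0 : ℝ), ((rexp (-π * n * u) : ℝ) : ℂ) *
        Complex.exp ((sl σ τ - 1) * (Real.log (u * Y) : ℝ)) =
      (Y : ℂ) ^ (sl σ τ - 1) * ((u : ℂ) ^ (sl σ τ - 1) * Complex.exp (-((π * n : ℝ) * u))) := by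
    intro u hu
    have hu' : (0 : ℝ) < u := hu
    have e2 : Complex.exp ((sl σ τ - 1) * (Real.log (u * Y) : ℝ)) =
        (u : ℂ) ^ (sl σ τ - 1) * (Y : ℂ) ^ (sl σ τ - 1) := by
      have e3 : ((u : ℂ)) ^ (sl σ τ - 1) * (Y : ℂ) ^ (sl σ τ - 1) =
          ((u * Y : ℝ) : ℂ) ^ (sl σ τ - 1) := by
        have := Complex.mul_cpow_ofReal_nonneg hu'.le hY0.le (sl σ τ - 1)
        rw [← Complex.ofReal_mul] at this
        rw [this]
        simp
      rw [e3, Complex.cpow_def_of_ne_zero (by exact_mod_cast (mul_pos hu' hY0).ne'),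
        Complex.ofReal_log (mul_pos hu' hY0).le, mul_comm]
    rw [e2]
    push_cast
    ring_nf
  rw [setIntegral_congr_fun measurableSet_Ioi e1, integral_const_mul, h]
  have e4 : (1 / ((π * n : ℝ) : ℂ)) ^ (sl σ τ) = (π : ℂ) ^ (-sl σ τ) * (n : ℂ) ^ (-sl σ τ) := by
    rw [one_div, Complex.inv_cpow _ _ (by
      rw [Complex.arg_ofReal_of_nonneg hr.le]; exact Real.pi_pos.ne), ← Complex.cpow_neg]
    have := Complex.mul_cpow_ofReal_nonneg Real.pi_pos.le hn0.le (-sl σ τ)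
    push_cast at this ⊢
    rw [this]
  rw [e4]
  ring

/-- the Mellin formula for `bet` -/
lemma bet_eq {Y : ℕ} (hY : 1 ≤ Y) {σ : ℝ} (h0 : 0 < σ) {h : ℝ → ℝ} {g : ℝ → ℂ}
    (hg : Continuous g) (hgi : Integrable g)
    (hrep : ∀ x : ℝ, (h x * Real.exp (-σ * x) : ℂ) = ∫ τ : ℝ, g τ * Complex.exp (τ * x * Complex.I))
    {n : ℕ} (hn : 1 ≤ n) :
    (bet (cfY Y h) n : ℂ) = ∫ τ : ℝ, 4 * (ca n : ℂ) * (Kf Y σ g τ * (n : ℂ) ^ (-sl σ τ)) := by
  have hY0 : (0 : ℝ) < Y := by exact_mod_cast (by omega : 0 < Y)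
  have hn0 : (0 : ℝ) < n := by exact_mod_cast (by omega : 0 < n)
  -- the pointwise formula
  have hpt : ∀ u ∈ Ioi (0 : ℝ), ((rexp (-π * n * u) * cfY Y h u : ℝ) : ℂ) =
      ∫ τ : ℝ, ((rexp (-π * n * u) : ℝ) : ℂ) *
        (g τ * Complex.exp ((sl σ τ - 1) * (Real.log (u * Y) : ℝ))) := by
    intro u _
    set x := Real.log (u * Y) with hx
    have e1 : (h x : ℂ) = Complex.exp (σ * x) * ∫ τ : ℝ, g τ * Complex.exp (τ * x * Complex.I) := by
      rw [← hrep x]
      have : Complex.exp (σ * x) * ((rexp (-σ * x) : ℝ) : ℂ) = 1 := by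
        rw [Complex.ofReal_exp, ← Complex.exp_add]
        push_cast
        ring_nf
        simp
      calc (h x : ℂ) = h x * (Complex.exp (σ * x) * ((rexp (-σ * x) : ℝ) : ℂ)) := by
            rw [this, mul_one]
        _ = _ := by ring
    rw [Complex.ofReal_mul]
    have e2 : ((cfY Y h u : ℝ) : ℂ) = (h x : ℂ) := rfl
    rw [e2, e1, ← integral_const_mul, ← integral_const_mul]
    refine integral_congr_ae (Eventually.of_forall fun τ => ?_)
    simp only
    have e3 : Complex.exp ((sl σ τ - 1) * (x : ℂ)) =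
        Complex.exp (σ * x) * Complex.exp (τ * x * Complex.I) := by
      rw [← Complex.exp_add]
      unfold sl
      ring_nf
    rw [e3]
    ring
  -- integrability on the product
  have hint : Integrable (Function.uncurry fun (u τ : ℝ) => ((rexp (-π * n * u) : ℝ) : ℂ) *
        (g τ * Complex.exp ((sl σ τ - 1) * (Real.log (u * Y) : ℝ))))
      ((volume.restrict (Ioi (0 : ℝ))).prod volume) := by
    have hA : Integrable (fun u : ℝ => rexp (-(π * n) * u) * u ^ σ * (Y : ℝ) ^ σ)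
        (volume.restrict (Ioi (0 : ℝ))) := by
      have h1 : IntegrableOn (fun u : ℝ => u ^ σ * rexp (-(π * n) * u)) (Ioi 0) :=
        integrableOn_rpow_mul_exp_neg_mul_rpow (s := σ) (p := 1) (b := π * n) (by linarith)
          one_pos (by positivity) |>.congr_fun (fun u _ => by simp) measurableSet_Ioi
      exact (h1.mul_const _).congr (Eventually.of_forall fun u => by simp only; ring)
    have hprod := hA.mul_prod hgi.norm
    refine Integrable.mono' hprod ?_ ?_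
    · apply Measurable.aestronglyMeasurable
      have m1 : Measurable g := hg.measurable
      have m2 : Measurable (sl σ) := (continuous_sl σ).measurable
      have m3 : Measurable fun p : ℝ × ℝ => Complex.exp ((sl σ p.2 - 1) *
          (Real.log (p.1 * Y) : ℝ)) := by fun_prop
      have m4 : Measurable fun p : ℝ × ℝ => ((rexp (-π * n * p.1) : ℝ) : ℂ) := by fun_prop
      exact m4.mul ((m1.comp measurable_snd).mul m3)
    · have hae : ∀ᵐ p : ℝ × ℝ ∂((volume.restrict (Ioi (0 : ℝ))).prod volume), p.1 ∈ Ioi (0 : ℝ) := by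
        have := (ae_restrict_mem (μ := volume) (s := Ioi (0 : ℝ)) measurableSet_Ioi)
        exact (Measure.quasiMeasurePreserving_fst.ae this)
      filter_upwards [hae] with p hp
      have hp' : 0 < p.1 := hp
      simp only [Function.uncurry]
      rw [norm_mul, norm_mul, Complex.norm_real, Real.norm_eq_abs, abs_of_pos (Real.exp_pos _),
        Complex.norm_exp]
      have e1 : ((sl σ p.2 - 1) * (Real.log (p.1 * Y) : ℝ)).re = σ * Real.log (p.1 * Y) := by
        unfold sl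
        simp
      rw [e1]
      have e2 : rexp (σ * Real.log (p.1 * Y)) = p.1 ^ σ * (Y : ℝ) ^ σ := by
        rw [← Real.mul_rpow hp'.le hY0.le, Real.rpow_def_of_pos (mul_pos hp' hY0), mul_comm]
      rw [e2]
      apply le_of_eq
      ring_nf
  unfold bet
  have hmain : ((∫ u in Ioi (0 : ℝ), rexp (-π * n * u) * cfY Y h u : ℝ) : ℂ) =
      ∫ τ : ℝ, Kf Y σ g τ * (n : ℂ) ^ (-sl σ τ) := by
    rw [← integral_complex_ofReal]
    have e1 : (∫ u in Ioi (0 : ℝ), ((rexp (-π * n * u) * cfY Y h u : ℝ) : ℂ)) =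
        ∫ u in Ioi (0 : ℝ), ∫ τ : ℝ, ((rexp (-π * n * u) : ℝ) : ℂ) *
        (g τ * Complex.exp ((sl σ τ - 1) * (Real.log (u * Y) : ℝ))) :=
      setIntegral_congr_fun measurableSet_Ioi hpt
    refine e1.trans ?_
    rw [integral_integral_swap hint]
    refine integral_congr_ae (Eventually.of_forall fun τ => ?_)
    simp only
    have e2 : ∀ u : ℝ, ((rexp (-π * n * u) : ℝ) : ℂ) *
        (g τ * Complex.exp ((sl σ τ - 1) * (Real.log (u * Y) : ℝ))) =
        g τ * (((rexp (-π * n * u) : ℝ) : ℂ) *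
          Complex.exp ((sl σ τ - 1) * (Real.log (u * Y) : ℝ))) := fun u => by ring
    simp only [e2]
    rw [integral_const_mul, inner_integral hY h0 hn]
    unfold Kf
    ring
  rw [integral_const_mul, ← hmain]
  push_cast
  ring

end H128

end P004
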