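import Vale.Agent.P004.H128.Pass2

/-!
# P004, module P1 (part 3): a bound for the quadratic form by means of the random model
-/

open Real MeasureTheory Set Filter Topology
open scoped ENNReal

namespace P004

namespace H128

/-! ### the random Euler product on the line `Re s = 1 + σ` -/

lemma norm_ds_eq (hc : StCoef) (X : ℕ → ℝ) (σ τ : ℝ) (n : ℕ) :
    ‖ds X (sl σ τ) n‖ = ‖ds X (sl σ 0) n‖ := by
  rcases Nat.eq_zero_or_pos n with rfl | hn
  · rw [ds_zero hc, ds_zero hc]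
  unfold ds
  rw [norm_mul, norm_mul (_ * _) ((n : ℂ) ^ (-sl σ 0)), Complex.norm_natCast_cpow_of_pos hn,
    Complex.norm_natCast_cpow_of_pos hn, Complex.neg_re, Complex.neg_re, sl_re, sl_re]

/-- the sum of the absolute values -/
noncomputable def DX (σ : ℝ) (X : ℕ → ℝ) : ℝ := ∑' n, ‖ds X (sl σ 0) n‖

lemma half_lt {σ : ℝ} (h0 : 0 < σ) (τ : ℝ) : 1 / 2 < (sl σ τ).re := by
  rw [sl_re]
  linarith

lemma norm_LN_le (hc : StCoef) {N : ℕ} (ω : Fin N → SignType) {σ : ℝ} (h0 : 0 < σ) (τ : ℝ) :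
    ‖LN N (Xf ω) (sl σ τ)‖ ≤ DX σ (Xf ω) := by
  rw [← tsum_ds hc ω (half_lt h0 τ)]
  refine (norm_tsum_le_tsum_norm (summable_ds hc ω (half_lt h0 τ))).trans (le_of_eq ?_)
  exact tsum_congr fun n => norm_ds_eq hc _ σ τ n

lemma measurable_LN (N : ℕ) (X : ℕ → ℝ) (σ : ℝ) : Measurable fun τ => LN N X (sl σ τ) := by
  have m2 : Measurable (sl σ) := (continuous_sl σ).measurable
  unfold LN
  refine Finset.measurable_prod _ fun p _ => ?_
  split_ifs
  · exact measurable_const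
  · fun_prop

/-- the linear form as an integral of the Euler product -/
lemma TX_eq (hc : StCoef) {N : ℕ} (ω : Fin N → SignType) {Y : ℕ} (hY : 1 ≤ Y) {σ : ℝ}
    (h0 : 0 < σ) (h1 : σ ≤ 2) {h : ℝ → ℝ} {g : ℝ → ℂ} (hg : Continuous g) (hgi : Integrable g)
    (hrep : ∀ x : ℝ, (h x * Real.exp (-σ * x) : ℂ) =
      ∫ τ : ℝ, g τ * Complex.exp (τ * x * Complex.I)) :
    ((∑' n : ℕ, bet (cfY Y h) n * Xf ω n : ℝ) : ℂ) =
      ∫ τ : ℝ, 4 * (Kf Y σ g τ * LN N (Xf ω) (sl σ τ)) := by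
  have hYσ : 0 ≤ (Y : ℝ) ^ σ := by positivity
  have hKc := continuous_Kf (Y := Y) hY h0 hg
  set F : ℕ → ℝ → ℂ := fun n τ => 4 * (Kf Y σ g τ * ds (Xf ω) (sl σ τ) n) with hF
  have hterm : ∀ n : ℕ, ((bet (cfY Y h) n * Xf ω n : ℝ) : ℂ) = ∫ τ : ℝ, F n τ := by
    intro n
    rcases Nat.eq_zero_or_pos n with rfl | hn
    · have e1 : bet (cfY Y h) 0 = 0 := by unfold bet; rw [hc.zero]; simp
      rw [e1]
      simp [hF, ds_zero hc]
    · rw [Complex.ofReal_mul, bet_eq hY h0 hg hgi hrep hn, ← integral_mul_const]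
      refine integral_congr_ae (Eventually.of_forall fun τ => ?_)
      simp only [hF]
      unfold ds
      ring
  have hbound : ∀ n τ, ‖F n τ‖ ≤ 4 * (Y : ℝ) ^ σ * ‖ds (Xf ω) (sl σ 0) n‖ * ‖g τ‖ := by
    intro n τ
    simp only [hF]
    rw [norm_mul, norm_mul, norm_ds_eq hc _ σ τ n]
    have := norm_Kf_le hY h0 h1 g τ
    calc ‖(4 : ℂ)‖ * (‖Kf Y σ g τ‖ * ‖ds (Xf ω) (sl σ 0) n‖) ≤
        4 * ((‖g τ‖ * (Y : ℝ) ^ σ) * ‖ds (Xf ω) (sl σ 0) n‖) := by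
          gcongr
          norm_num
      _ = _ := by ring
  have hds : ∀ n : ℕ, Measurable fun τ => ds (Xf ω) (sl σ τ) n := fun n => by
    have m2 : Measurable (sl σ) := (continuous_sl σ).measurable
    unfold ds
    fun_prop
  have hFint : ∀ n, Integrable (F n) := fun n => by
    refine Integrable.mono' (hgi.norm.const_mul (4 * (Y : ℝ) ^ σ * ‖ds (Xf ω) (sl σ 0) n‖)) ?_
      (Eventually.of_forall (hbound n))
    exact (measurable_const.mul (hKc.measurable.mul (hds n))).aestronglyMeasurable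
  have hFsum : Summable fun n => ∫ τ, ‖F n τ‖ := by
    refine Summable.of_nonneg_of_le (fun n => integral_nonneg fun _ => norm_nonneg _)
      (fun n => ?_) ((summable_ds hc ω (half_lt h0 0)).mul_left (4 * (Y : ℝ) ^ σ * ∫ τ, ‖g τ‖))
    calc ∫ τ, ‖F n τ‖ ≤ ∫ τ, 4 * (Y : ℝ) ^ σ * ‖ds (Xf ω) (sl σ 0) n‖ * ‖g τ‖ :=
          integral_mono (hFint n).norm (hgi.norm.const_mul _) (hbound n)
      _ = _ := by rw [integral_const_mul]; ring
  rw [Complex.ofReal_tsum]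
  simp only [hterm]
  rw [integral_tsum_of_summable_integral_norm hFint hFsum]
  refine integral_congr_ae (Eventually.of_forall fun τ => ?_)
  simp only [hF]
  rw [tsum_mul_left, tsum_mul_left, tsum_ds hc ω (half_lt h0 τ)]

lemma abs_TX_le (hc : StCoef) {N : ℕ} (ω : Fin N → SignType) {Y : ℕ} (hY : 1 ≤ Y) {σ : ℝ}
    (h0 : 0 < σ) (h1 : σ ≤ 2) {h : ℝ → ℝ} {g : ℝ → ℂ} (hg : Continuous g) (hgi : Integrable g)
    (hrep : ∀ x : ℝ, (h x * Real.exp (-σ * x) : ℂ) =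
      ∫ τ : ℝ, g τ * Complex.exp (τ * x * Complex.I)) :
    |∑' n : ℕ, bet (cfY Y h) n * Xf ω n| ≤
      4 * (Y : ℝ) ^ σ * ∫ τ : ℝ, ‖g τ‖ * ‖LN N (Xf ω) (sl σ τ)‖ := by
  have hint : Integrable fun τ => ‖g τ‖ * ‖LN N (Xf ω) (sl σ τ)‖ := by
    refine Integrable.mono' (hgi.norm.mul_const (DX σ (Xf ω))) ?_
      (Eventually.of_forall fun τ => ?_)
    · exact (hg.measurable.norm.mul (measurable_LN N _ σ).norm).aestronglyMeasurable
    · rw [norm_mul, norm_norm, norm_norm]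
      exact mul_le_mul_of_nonneg_left (norm_LN_le hc ω h0 τ) (norm_nonneg _)
  rw [← Real.norm_eq_abs, ← Complex.norm_real, TX_eq hc ω hY h0 h1 hg hgi hrep,
    ← integral_const_mul]
  refine norm_integral_le_of_norm_le (hint.const_mul _) (Eventually.of_forall fun τ => ?_)
  rw [norm_mul, norm_mul]
  have := norm_Kf_le hY h0 h1 g τ
  calc ‖(4 : ℂ)‖ * (‖Kf Y σ g τ‖ * ‖LN N (Xf ω) (sl σ τ)‖) ≤
      4 * ((‖g τ‖ * (Y : ℝ) ^ σ) * ‖LN N (Xf ω) (sl σ τ)‖) := by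
        gcongr
        norm_num
    _ = _ := by ring

/-- weighted Cauchy-Schwarz -/
lemma weighted_cs {g : ℝ → ℂ} (hg : Continuous g) {L : ℝ → ℂ} (hL : Measurable L) {D w : ℝ}
    {B : ℕ} (hw : 0 < w) (hLb : ∀ τ, ‖L τ‖ ≤ D)
    (hgi : Integrable fun τ => ‖g τ‖ * (1 + |τ| * w) ^ B) :
    (∫ τ, ‖g τ‖ * ‖L τ‖) ^ 2 ≤ (∫ τ, ‖g τ‖ * (1 + |τ| * w) ^ B) *
      ∫ τ, ‖g τ‖ * (‖L τ‖ ^ 2 / (1 + |τ| * w) ^ B) := by
  have hW1 : ∀ τ : ℝ, 1 ≤ (1 + |τ| * w) ^ B := fun τ =>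
    one_le_pow₀ (by have := abs_nonneg τ; nlinarith [mul_nonneg (abs_nonneg τ) hw.le])
  have hD : 0 ≤ D := (norm_nonneg _).trans (hLb 0)
  have hgi0 : Integrable fun τ => ‖g τ‖ := by
    refine Integrable.mono' hgi hg.norm.aestronglyMeasurable (Eventually.of_forall fun τ => ?_)
    rw [norm_norm]
    exact le_mul_of_one_le_right (norm_nonneg _) (hW1 τ)
  have mW : Measurable fun τ : ℝ => (1 + |τ| * w) ^ B := by fun_prop
  have hi1 : Integrable fun τ => ‖g τ‖ * ‖L τ‖ := by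
    refine Integrable.mono' (hgi0.mul_const D) ?_ (Eventually.of_forall fun τ => ?_)
    · exact (hg.measurable.norm.mul hL.norm).aestronglyMeasurable
    · rw [norm_mul, norm_norm, norm_norm]
      exact mul_le_mul_of_nonneg_left (hLb τ) (norm_nonneg _)
  have hi2 : Integrable fun τ => ‖g τ‖ * (‖L τ‖ ^ 2 / (1 + |τ| * w) ^ B) := by
    refine Integrable.mono' (hgi0.mul_const (D ^ 2)) ?_ (Eventually.of_forall fun τ => ?_)
    · exact (hg.measurable.norm.mul ((hL.norm.pow_const 2).div mW)).aestronglyMeasurable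
    · have h1 := hW1 τ
      have h2 : ‖L τ‖ ^ 2 ≤ D ^ 2 := by
        have := hLb τ
        gcongr
      rw [Real.norm_of_nonneg (by positivity)]
      refine mul_le_mul_of_nonneg_left ?_ (norm_nonneg _)
      exact (div_le_self (by positivity) h1).trans h2
  have hkey : ∀ t : ℝ, 0 ≤ (∫ τ, ‖g τ‖ * (1 + |τ| * w) ^ B) * (t * t) +
      (-2 * ∫ τ, ‖g τ‖ * ‖L τ‖) * t + ∫ τ, ‖g τ‖ * (‖L τ‖ ^ 2 / (1 + |τ| * w) ^ B) := by
    intro t
    have e1 : (∫ τ, ‖g τ‖ * (1 + |τ| * w) ^ B) * (t * t) +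
      (-2 * ∫ τ, ‖g τ‖ * ‖L τ‖) * t + ∫ τ, ‖g τ‖ * (‖L τ‖ ^ 2 / (1 + |τ| * w) ^ B) =
      ∫ τ, (‖g τ‖ * (1 + |τ| * w) ^ B * (t * t) + -2 * (‖g τ‖ * ‖L τ‖) * t +
        ‖g τ‖ * (‖L τ‖ ^ 2 / (1 + |τ| * w) ^ B)) := by
      have i1 : Integrable fun τ => ‖g τ‖ * (1 + |τ| * w) ^ B * (t * t) := hgi.mul_const _
      have i2 : Integrable fun τ => -2 * (‖g τ‖ * ‖L τ‖) * t := (hi1.const_mul _).mul_const _
      have i12 : Integrable fun τ => ‖g τ‖ * (1 + |τ| * w) ^ B * (t * t) +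
        -2 * (‖g τ‖ * ‖L τ‖) * t := i1.add i2
      rw [integral_add i12 hi2, integral_add i1 i2, integral_mul_const,
        integral_mul_const, integral_const_mul]
    rw [e1]
    refine integral_nonneg fun τ => ?_
    simp only [Pi.zero_apply]
    have hW := hW1 τ
    have hW0 : (0 : ℝ) < (1 + |τ| * w) ^ B := by linarith
    have e2 : ‖g τ‖ * (1 + |τ| * w) ^ B * (t * t) + -2 * (‖g τ‖ * ‖L τ‖) * t +
        ‖g τ‖ * (‖L τ‖ ^ 2 / (1 + |τ| * w) ^ B) =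
        ‖g τ‖ * (1 + |τ| * w) ^ B * (t - ‖L τ‖ / (1 + |τ| * w) ^ B) ^ 2 := by
      field_simp
      ring
    rw [e2]
    positivity
  have h := discrim_le_zero hkey
  unfold discrim at h
  linarith

/-- the second moment of the linear form in the random model -/
lemma EN_sq_le (hc : StCoef) {Y : ℕ} {S : Finset ℕ} {m : ℕ → ℝ} {Z w σ : ℝ} {B N : ℕ}
    {h : ℝ → ℝ} {g : ℝ → ℂ} (hY : 1 ≤ Y) (h0 : 0 < σ) (h1 : σ ≤ 2) (hw : 0 < w)
    (hg : Continuous g) (hgi : Integrable g)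
    (hgB : Integrable (fun τ => ‖g τ‖ * (1 + |τ| * w) ^ B))
    (hrep : ∀ x : ℝ, (h x * Real.exp (-σ * x) : ℂ) =
      ∫ τ : ℝ, g τ * Complex.exp (τ * x * Complex.I))
    (hZ : ∀ τ : ℝ, EN N (fun X => (∑ a ∈ S, m a * X a) ^ 2 *
      ‖LN N X (1 + σ + τ * Complex.I)‖ ^ 2) ≤ Z * (1 + |τ| * w) ^ (2 * B)) :
    EN N (fun X => (∑ a ∈ S, m a * X a) ^ 2 * (∑' n : ℕ, bet (cfY Y h) n * X n) ^ 2) ≤
      16 * Z * ((Y : ℝ) ^ σ * ∫ τ, ‖g τ‖ * (1 + |τ| * w) ^ B) ^ 2 := by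
  set G : ℝ := ∫ τ, ‖g τ‖ * (1 + |τ| * w) ^ B with hG
  have hW1 : ∀ τ : ℝ, 1 ≤ (1 + |τ| * w) ^ B := fun τ =>
    one_le_pow₀ (by nlinarith [mul_nonneg (abs_nonneg τ) hw.le])
  have hG0 : 0 ≤ G := integral_nonneg fun τ => by
    have := hW1 τ
    positivity
  set Q : (ℕ → ℝ) → ℝ → ℝ := fun X τ => (∑ a ∈ S, m a * X a) ^ 2 *
    (‖g τ‖ * (‖LN N X (sl σ τ)‖ ^ 2 / (1 + |τ| * w) ^ B)) with hQ
  have mW : Measurable fun τ : ℝ => (1 + |τ| * w) ^ B := by fun_prop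
  have hQi : ∀ ω : Fin N → SignType, Integrable (Q (Xf ω)) := fun ω => by
    have hD := norm_LN_le hc ω h0
    have hD0 : 0 ≤ DX σ (Xf ω) := (norm_nonneg _).trans (hD 0)
    refine Integrable.const_mul ?_ _
    refine Integrable.mono' (hgi.norm.mul_const (DX σ (Xf ω) ^ 2)) ?_
      (Eventually.of_forall fun τ => ?_)
    · exact (hg.measurable.norm.mul
        (((measurable_LN N _ σ).norm.pow_const 2).div mW)).aestronglyMeasurable
    · have h1 := hW1 τ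
      have h2 : ‖LN N (Xf ω) (sl σ τ)‖ ^ 2 ≤ DX σ (Xf ω) ^ 2 := by
        have := hD τ
        gcongr
      rw [Real.norm_of_nonneg (by positivity)]
      refine mul_le_mul_of_nonneg_left ?_ (norm_nonneg _)
      exact (div_le_self (by positivity) h1).trans h2
  have hstep : EN N (fun X => (∑ a ∈ S, m a * X a) ^ 2 * (∑' n : ℕ, bet (cfY Y h) n * X n) ^ 2) ≤
      EN N (fun X => 16 * ((Y : ℝ) ^ σ) ^ 2 * G * ∫ τ, Q X τ) := by
    refine EN_mono fun ω => ?_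
    have e1 := abs_TX_le hc ω hY h0 h1 hg hgi hrep
    have e2 := weighted_cs hg (measurable_LN N (Xf ω) σ) hw (norm_LN_le hc ω h0) hgB
    rw [← hG] at e2
    have e3 : (∑' n : ℕ, bet (cfY Y h) n * Xf ω n) ^ 2 ≤ 16 * ((Y : ℝ) ^ σ) ^ 2 *
        (G * ∫ τ, ‖g τ‖ * (‖LN N (Xf ω) (sl σ τ)‖ ^ 2 / (1 + |τ| * w) ^ B)) := by
      rw [← sq_abs]
      calc |∑' n : ℕ, bet (cfY Y h) n * Xf ω n| ^ 2 ≤
          (4 * (Y : ℝ) ^ σ * ∫ τ : ℝ, ‖g τ‖ * ‖LN N (Xf ω) (sl σ τ)‖) ^ 2 := by gcongr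
        _ = 16 * ((Y : ℝ) ^ σ) ^ 2 * (∫ τ : ℝ, ‖g τ‖ * ‖LN N (Xf ω) (sl σ τ)‖) ^ 2 := by ring
        _ ≤ _ := by gcongr
    simp only [hQ]
    rw [integral_const_mul]
    calc (∑ a ∈ S, m a * Xf ω a) ^ 2 * (∑' n : ℕ, bet (cfY Y h) n * Xf ω n) ^ 2 ≤
        (∑ a ∈ S, m a * Xf ω a) ^ 2 * (16 * ((Y : ℝ) ^ σ) ^ 2 *
        (G * ∫ τ, ‖g τ‖ * (‖LN N (Xf ω) (sl σ τ)‖ ^ 2 / (1 + |τ| * w) ^ B))) := by gcongr
      _ = _ := by ring
  refine hstep.trans ?_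
  rw [EN_const_mul, EN_integral hQi]
  have hint2 : ∫ τ, EN N (fun X => Q X τ) ≤ Z * G := by
    rw [hG, ← integral_const_mul]
    refine integral_mono (EN_integrable hQi) (hgB.const_mul _) fun τ => ?_
    have hW := hW1 τ
    have hW0 : (0 : ℝ) < (1 + |τ| * w) ^ B := by linarith
    have e1 : EN N (fun X => Q X τ) = ‖g τ‖ / (1 + |τ| * w) ^ B *
        EN N (fun X => (∑ a ∈ S, m a * X a) ^ 2 * ‖LN N X (1 + σ + τ * Complex.I)‖ ^ 2) := by
      rw [← EN_const_mul]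
      refine EN_congr fun ω => ?_
      simp only [hQ]
      unfold sl
      ring
    rw [e1]
    calc ‖g τ‖ / (1 + |τ| * w) ^ B * EN N (fun X => (∑ a ∈ S, m a * X a) ^ 2 *
          ‖LN N X (1 + σ + τ * Complex.I)‖ ^ 2) ≤
        ‖g τ‖ / (1 + |τ| * w) ^ B * (Z * (1 + |τ| * w) ^ (2 * B)) := by
          gcongr
          exact hZ τ
      _ = Z * (‖g τ‖ * (1 + |τ| * w) ^ B) := by
          rw [two_mul, pow_add]
          field_simp
  calc 16 * ((Y : ℝ) ^ σ) ^ 2 * G * ∫ τ, EN N (fun X => Q X τ) ≤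
      16 * ((Y : ℝ) ^ σ) ^ 2 * G * (Z * G) := by gcongr
    _ = _ := by ring

/-! ### the limit -/

lemma rho_abs_le (n : ℕ) : |rho n| ≤ 1 := by
  unfold rho
  split_ifs
  · rw [Finset.abs_prod]
    refine Finset.prod_le_one (fun _ _ => abs_nonneg _) fun p hp => ?_
    have hp1 : (1 : ℝ) ≤ p := by exact_mod_cast (Nat.prime_of_mem_primeFactors hp).one_lt.le
    have h1 : 1 / (p : ℝ) ≤ 1 := by rw [div_le_one (by linarith)]; exact hp1
    have h2 : 0 ≤ 1 / (p : ℝ) := by positivity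
    rw [abs_of_nonneg (by linarith)]
    linarith
  · simp

lemma EN_abs_le {N : ℕ} {F : (ℕ → ℝ) → ℝ} (h : ∀ ω : Fin N → SignType, |F (Xf ω)| ≤ 1) :
    |EN N F| ≤ 1 := by
  unfold EN
  refine (Finset.abs_sum_le_sum_abs _ _).trans ?_
  rw [← sum_wp_prod N]
  refine Finset.sum_le_sum fun ω _ => ?_
  rw [abs_mul, abs_of_nonneg (wprod_nonneg ω)]
  exact mul_le_of_le_one_right (wprod_nonneg ω) (h ω)

lemma quad_point {β : ℕ → ℝ} {x : ℕ → ℝ} (hx : Summable fun n => ‖β n * x n‖) (S : Finset ℕ)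
    (m : ℕ → ℝ) : (∑ a ∈ S, m a * x a) ^ 2 * (∑' n : ℕ, β n * x n) ^ 2 =
      ∑ a ∈ S, ∑ a' ∈ S, ∑' p : ℕ × ℕ, (m a * m a') * (β p.1 * β p.2 *
        (x a * x a' * x p.1 * x p.2)) := by
  rw [sq (∑' n : ℕ, β n * x n), tsum_mul_tsum_of_summable_norm hx hx, sq,
    Finset.sum_mul_sum, Finset.sum_mul]
  refine Finset.sum_congr rfl fun a _ => ?_
  rw [Finset.sum_mul]
  refine Finset.sum_congr rfl fun a' _ => ?_
  rw [← tsum_mul_left]
  exact tsum_congr fun p => by ring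

lemma summable_quad {β x : ℕ → ℝ} (hx : Summable fun n => ‖β n * x n‖) (c d d' : ℝ) :
    Summable fun p : ℕ × ℕ => c * (β p.1 * β p.2 * (d * d' * x p.1 * x p.2)) := by
  have h3 : Summable fun p : ℕ × ℕ => (β p.1 * x p.1) * (β p.2 * x p.2) :=
    summable_mul_of_summable_norm (f := fun n => β n * x n) (g := fun n => β n * x n) hx hx
  refine (h3.mul_left (c * (d * d'))).congr fun p => ?_
  ring

lemma EN_quad_eq {β : ℕ → ℝ} (hβ : Summable fun n => |β n|) (S : Finset ℕ) (m : ℕ → ℝ) (N : ℕ) :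
    EN N (fun X => (∑ a ∈ S, m a * X a) ^ 2 * (∑' n : ℕ, β n * X n) ^ 2) =
      ∑ a ∈ S, ∑ a' ∈ S, m a * m a' * ∑' p : ℕ × ℕ, β p.1 * β p.2 *
        EN N (fun X => X a * X a' * X p.1 * X p.2) := by
  have hsX : ∀ ω : Fin N → SignType, Summable fun n => ‖β n * Xf ω n‖ := fun ω => by
    refine Summable.of_nonneg_of_le (fun _ => norm_nonneg _) (fun n => ?_) hβ
    rw [norm_mul, Real.norm_eq_abs, Real.norm_eq_abs]
    exact mul_le_of_le_one_right (abs_nonneg _) (abs_Xf_le ω n)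
  have hs2 : ∀ (ω : Fin N → SignType) (a a' : ℕ), Summable fun p : ℕ × ℕ =>
      (m a * m a') * (β p.1 * β p.2 * (Xf ω a * Xf ω a' * Xf ω p.1 * Xf ω p.2)) := by
    intro ω a a'
    exact summable_quad (hsX ω) (m a * m a') (Xf ω a) (Xf ω a')
  have h1 : EN N (fun X => (∑ a ∈ S, m a * X a) ^ 2 * (∑' n : ℕ, β n * X n) ^ 2) =
      EN N (fun X => ∑ a ∈ S, ∑ a' ∈ S, ∑' p : ℕ × ℕ, (m a * m a') * (β p.1 * β p.2 *
        (X a * X a' * X p.1 * X p.2))) :=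
    EN_congr fun ω => quad_point (hsX ω) S m
  rw [h1, EN_sum N S (fun a X => ∑ a' ∈ S, ∑' p : ℕ × ℕ, (m a * m a') * (β p.1 * β p.2 *
        (X a * X a' * X p.1 * X p.2)))]
  refine Finset.sum_congr rfl fun a _ => ?_
  rw [EN_sum N S (fun a' X => ∑' p : ℕ × ℕ, (m a * m a') * (β p.1 * β p.2 *
        (X a * X a' * X p.1 * X p.2)))]
  refine Finset.sum_congr rfl fun a' _ => ?_
  rw [EN_tsum (F := fun (p : ℕ × ℕ) X => (m a * m a') * (β p.1 * β p.2 *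
        (X a * X a' * X p.1 * X p.2))) fun ω => hs2 ω a a', ← tsum_mul_left]
  refine tsum_congr fun p => ?_
  rw [EN_const_mul N (m a * m a') (fun X => β p.1 * β p.2 * (X a * X a' * X p.1 * X p.2)),
    EN_const_mul N (β p.1 * β p.2) (fun X => X a * X a' * X p.1 * X p.2)]

/-- the linear form -/
lemma EN_lin_eq {β : ℕ → ℝ} (hβ : Summable fun n => |β n|) (S : Finset ℕ) (m : ℕ → ℝ) (N : ℕ) :
    EN N (fun X => (∑ a ∈ S, m a * X a) * ∑' n : ℕ, β n * X n) =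
      ∑ a ∈ S, m a * ∑' n : ℕ, β n * EN N (fun X => X a * X n) := by
  have hsX : ∀ ω : Fin N → SignType, Summable fun n => β n * Xf ω n := fun ω => by
    refine Summable.of_norm_bounded hβ fun n => ?_
    rw [norm_mul, Real.norm_eq_abs, Real.norm_eq_abs]
    exact mul_le_of_le_one_right (abs_nonneg _) (abs_Xf_le ω n)
  have h1 : EN N (fun X => (∑ a ∈ S, m a * X a) * ∑' n : ℕ, β n * X n) =
      EN N (fun X => ∑ a ∈ S, ∑' n : ℕ, m a * (β n * (X a * X n))) := by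
    refine EN_congr fun ω => ?_
    rw [Finset.sum_mul]
    refine Finset.sum_congr rfl fun a _ => ?_
    rw [← tsum_mul_left]
    exact tsum_congr fun n => by ring
  rw [h1, EN_sum N S (fun a X => ∑' n : ℕ, m a * (β n * (X a * X n)))]
  refine Finset.sum_congr rfl fun a _ => ?_
  have hs2 : ∀ ω : Fin N → SignType, Summable fun n => m a * (β n * (Xf ω a * Xf ω n)) := fun ω => by
    refine ((hsX ω).mul_left (m a * Xf ω a)).congr fun n => ?_
    ring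
  rw [EN_tsum (F := fun (n : ℕ) X => m a * (β n * (X a * X n))) hs2, ← tsum_mul_left]
  refine tsum_congr fun n => ?_
  rw [EN_const_mul N (m a) (fun X => β n * (X a * X n)),
    EN_const_mul N (β n) (fun X => X a * X n)]

lemma bet_zero (hc : StCoef) (f : ℝ → ℝ) : bet f 0 = 0 := by
  unfold bet
  rw [hc.zero]
  simp

/-- convergence of the quadratic form of the random model -/
lemma tendsto_quad {β : ℕ → ℝ} (hβ : Summable fun n => |β n|) (hβ0 : β 0 = 0) {S : Finset ℕ}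
    (hS : ∀ a ∈ S, a ≠ 0) (m : ℕ → ℝ) :
    Tendsto (fun N => EN N (fun X => (∑ a ∈ S, m a * X a) ^ 2 *
      (∑' n : ℕ, β n * X n) ^ 2)) atTop (𝓝 (∑ a ∈ S, ∑ a' ∈ S, m a * m a' *
        ∑' p : ℕ × ℕ, β p.1 * β p.2 * rho (a * a' * p.1 * p.2))) := by
  have hβ2 : Summable fun p : ℕ × ℕ => ‖β p.1 * β p.2‖ := by
    refine (summable_mul_of_summable_norm (f := fun n => |β n|) (g := fun n => |β n|)
      (by simpa using hβ) (by simpa using hβ)).congr fun p => ?_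
    rw [norm_mul, Real.norm_eq_abs, Real.norm_eq_abs]
  simp only [EN_quad_eq hβ]
  refine tendsto_finsetSum _ fun a ha => tendsto_finsetSum _ fun a' ha' => ?_
  refine Tendsto.const_mul _ ?_
  refine tendsto_tsum_of_dominated_convergence hβ2 (fun p => ?_)
    (Eventually.of_forall fun N p => ?_)
  · by_cases hp : p.1 = 0 ∨ p.2 = 0
    · have e1 : β p.1 * β p.2 = 0 := by
        rcases hp with hp | hp
        · rw [hp, hβ0, zero_mul]
        · rw [hp, hβ0, mul_zero]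
      simp only [e1, zero_mul]
      exact tendsto_const_nhds
    · push Not at hp
      have ha0 := hS a ha
      have ha0' := hS a' ha'
      refine Tendsto.const_mul _ ?_
      have hn0 : a * a' * p.1 * p.2 ≠ 0 :=
        Nat.mul_ne_zero (Nat.mul_ne_zero (Nat.mul_ne_zero ha0 ha0') hp.1) hp.2
      refine tendsto_const_nhds.congr' ?_
      filter_upwards [eventually_gt_atTop (a * a' * p.1 * p.2)] with N hN
      rw [← pfOrth N _ (Nat.mem_smoothNumbers_of_lt (Nat.pos_of_ne_zero hn0) hN)]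
      refine EN_congr fun ω => ?_
      rw [Xf_mul ω (Nat.mul_ne_zero (Nat.mul_ne_zero ha0 ha0') hp.1) hp.2,
        Xf_mul ω (Nat.mul_ne_zero ha0 ha0') hp.1, Xf_mul ω ha0 ha0']
  · rw [norm_mul]
    refine mul_le_of_le_one_right (norm_nonneg _) ?_
    rw [Real.norm_eq_abs]
    refine EN_abs_le fun ω => ?_
    rw [abs_mul, abs_mul, abs_mul]
    have := abs_Xf_le ω a
    have := abs_Xf_le ω a'
    have := abs_Xf_le ω p.1
    have := abs_Xf_le ω p.2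
    calc |Xf ω a| * |Xf ω a'| * |Xf ω p.1| * |Xf ω p.2| ≤ 1 * 1 * 1 * 1 := by gcongr
      _ = 1 := by norm_num

/-- convergence of the linear form of the random model -/
lemma tendsto_lin {β : ℕ → ℝ} (hβ : Summable fun n => |β n|) (hβ0 : β 0 = 0) {S : Finset ℕ}
    (hS : ∀ a ∈ S, a ≠ 0) (m : ℕ → ℝ) :
    Tendsto (fun N => EN N (fun X => (∑ a ∈ S, m a * X a) * ∑' n : ℕ, β n * X n)) atTop
      (𝓝 (∑ a ∈ S, m a * ∑' n : ℕ, β n * rho (a * n))) := by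
  simp only [EN_lin_eq hβ]
  refine tendsto_finsetSum _ fun a ha => ?_
  refine Tendsto.const_mul _ ?_
  refine tendsto_tsum_of_dominated_convergence hβ (fun n => ?_)
    (Eventually.of_forall fun N n => ?_)
  · by_cases hn : n = 0
    · simp only [hn, hβ0, zero_mul]
      exact tendsto_const_nhds
    · have ha0 := hS a ha
      refine Tendsto.const_mul _ ?_
      have hn0 : a * n ≠ 0 := Nat.mul_ne_zero ha0 hn
      refine tendsto_const_nhds.congr' ?_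
      filter_upwards [eventually_gt_atTop (a * n)] with N hN
      rw [← pfOrth N _ (Nat.mem_smoothNumbers_of_lt (Nat.pos_of_ne_zero hn0) hN)]
      refine EN_congr fun ω => ?_
      rw [Xf_mul ω ha0 hn]
  · rw [norm_mul, Real.norm_eq_abs]
    refine mul_le_of_le_one_right (abs_nonneg _) ?_
    rw [Real.norm_eq_abs]
    refine EN_abs_le fun ω => ?_
    rw [abs_mul]
    have := abs_Xf_le ω a
    have := abs_Xf_le ω n
    calc |Xf ω a| * |Xf ω n| ≤ 1 * 1 := by gcongr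
      _ = 1 := by norm_num

end H128

/-- `StPass` for a fixed `N`, without boundedness or cutoff of `h` -/
def StPassN : Prop :=
  ∀ (Y : ℕ) (S : Finset ℕ) (m : ℕ → ℝ) (Z w σ : ℝ) (B N : ℕ) (h : ℝ → ℝ) (g : ℝ → ℂ),
    1 ≤ Y → 0 < σ → σ ≤ 2 → 0 ≤ Z → 0 < w → Measurable h → (∀ a ∈ S, a ≠ 0) →
    Continuous g → Integrable g → Integrable (fun τ => ‖g τ‖ * (1 + |τ| * w) ^ B) →
    (∀ x : ℝ, (h x * Real.exp (-σ * x) : ℂ) = ∫ τ : ℝ, g τ * Complex.exp (τ * x * Complex.I)) →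
    (∀ τ : ℝ, EN N (fun X => (∑ a ∈ S, m a * X a) ^ 2 *
      ‖LN N X (1 + σ + τ * Complex.I)‖ ^ 2) ≤ Z * (1 + |τ| * w) ^ (2 * B)) →
    EN N (fun X => (∑ a ∈ S, m a * X a) ^ 2 * (∑' n : ℕ, bet (cfY Y h) n * X n) ^ 2) ≤
      16 * Z * ((Y : ℝ) ^ σ * ∫ τ, ‖g τ‖ * (1 + |τ| * w) ^ B) ^ 2

/-- the limit `N → ∞` in the random model -/
def StLim : Prop :=
  ∀ (S : Finset ℕ) (m : ℕ → ℝ) (U b : ℝ) (f : ℝ → ℝ), 0 < U → Measurable f →
    (∀ u, 0 < u → |f u| ≤ b) → (∀ u, 0 < u → u < U → f u = 0) → (∀ a ∈ S, a ≠ 0) →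
    Tendsto (fun N => EN N (fun X => (∑ a ∈ S, m a * X a) ^ 2 *
      (∑' n : ℕ, bet f n * X n) ^ 2)) atTop (𝓝 (∑ a ∈ S, ∑ a' ∈ S, m a * m a' *
        ∑' p : ℕ × ℕ, bet f p.1 * bet f p.2 * rho (a * a' * p.1 * p.2))) ∧
    Tendsto (fun N => EN N (fun X => (∑ a ∈ S, m a * X a) * ∑' n : ℕ, bet f n * X n)) atTop
      (𝓝 (∑ a ∈ S, m a * ∑' n : ℕ, bet f n * rho (a * n)))

/-- the Euler product of the random model as a Dirichlet series -/
def StLN : Prop :=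
  ∀ (N : ℕ) (ω : Fin N → SignType) (s : ℂ), 1 / 2 < s.re →
    Summable (fun n : ℕ => |(ca n : ℝ)| * |Xf ω n| * (n : ℝ) ^ (-s.re)) ∧
    LN N (Xf ω) s = ∑' n : ℕ, (ca n : ℂ) * (Xf ω n : ℂ) * (n : ℂ) ^ (-s)

open H128 in
theorem pfPassN (hc : StCoef) : StPassN := by
  intro Y S m Z w σ B N h g hY h0 h1 _ hw _ _ hg hgi hgB hrep hZ
  exact EN_sq_le hc hY h0 h1 hw hg hgi hgB hrep hZ

open H128 in
theorem pfLim (hc : StCoef) : StLim := by
  intro S m U b f hU _ hb hfU hS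
  have hβ := summable_bet hc hU hb hfU
  exact ⟨tendsto_quad hβ (bet_zero hc f) hS m, tendsto_lin hβ (bet_zero hc f) hS m⟩

open H128 in
theorem pfLN (hc : StCoef) : StLN := by
  intro N ω s hs
  refine ⟨?_, (tsum_ds hc ω hs).symm⟩
  refine (summable_ds hc ω hs).congr fun n => ?_
  rcases Nat.eq_zero_or_pos n with rfl | hn
  · rw [ds_zero hc, hc.zero]
    simp
  · unfold ds
    rw [norm_mul, norm_mul, Complex.norm_natCast_cpow_of_pos hn, Complex.norm_intCast,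
      Complex.norm_real, Real.norm_eq_abs, Complex.neg_re]

open H128 in
/-- Module P1. -/
theorem pfPass (hc : StCoef) : StPass := by
  intro Y S m Z w σ U b B N₀ h g hY hU h0 h1 _ hw _ hb hfU hS _ hg hgi hgB hrep hZ
  have hβ := summable_bet hc (f := cfY Y h) hU (fun u _ => hb _) hfU
  refine le_of_tendsto (tendsto_quad hβ (bet_zero hc _) hS m) ?_
  filter_upwards [eventually_ge_atTop N₀] with N hN
  exact EN_sq_le hc hY h0 (by linarith) hw hg hgi hgB hrep (fun τ => hZ N τ hN)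

end P004
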