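import Vale.Agent.P004.H293.RA

/-!
# P004: two lemmas for module R3
-/

open Finset Real

namespace P004.H128

open P004.H293

/-- Jensen's inequality -/
lemma EE_sq_le {S : Finset ℕ} (hS : ∀ p ∈ S, 1 ≤ p) (F : (ℕ → ℝ) → ℝ) :
    (EE S F) ^ 2 ≤ EE S (fun ω => F ω ^ 2) := by
  have h := EE_nonneg hS (F := fun ω => (F ω - EE S F) ^ 2) (fun ω _ => sq_nonneg _)
  have h2 : EE S (fun ω => (F ω - EE S F) ^ 2) = EE S (fun ω => F ω ^ 2) - (EE S F) ^ 2 := by
    have e1 : (fun ω => (F ω - EE S F) ^ 2) =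
        fun ω => (F ω ^ 2 + (-2 * EE S F) * F ω) + (EE S F) ^ 2 := by
      funext ω
      ring
    rw [e1, EE_add, EE_add, EE_mul_left, EE_const]
    ring
  linarith

theorem prod_sub_one {J : Finset ℕ} {I : ℕ → Finset ℕ} (hI1 : ∀ k ∈ J, ∀ p ∈ I k, 1 ≤ p)
    (hI : (J : Set ℕ).PairwiseDisjoint I) (Y : ℕ → (ℕ → ℝ) → ℝ) (hY : ∀ k ∈ J, DepOn (I k) (Y k))
    (s : ℕ → ℝ) (hs : ∀ k ∈ J, 0 ≤ s k)
    (h2 : ∀ k ∈ J, EE (I k) (fun ω => Y k ω ^ 2) ≤ s k ^ 2) :
    EE (J.biUnion I) (fun ω => (∏ k ∈ J, (1 + Y k ω) - 1) ^ 2) ≤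
      (∏ k ∈ J, (1 + s k) - 1) ^ 2 := by
  classical
  induction J using Finset.induction_on with
  | empty => simp [EE_const]
  | insert j J hj ih =>
    have hIJ : (J : Set ℕ).PairwiseDisjoint I := hI.subset (by simp)
    have ih' := ih (fun k hk => hI1 k (mem_insert_of_mem hk)) hIJ
      (fun k hk => hY k (mem_insert_of_mem hk)) (fun k hk => hs k (mem_insert_of_mem hk))
      (fun k hk => h2 k (mem_insert_of_mem hk))
    set U := J.biUnion I with hU
    have hdis : Disjoint (I j) U := by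
      rw [hU, Finset.disjoint_biUnion_right]
      intro k hk
      exact hI (by simp) (by simp [hk]) (fun h => hj (h ▸ hk))
    have hY0 : DepOn (I j) (Y j) := hY j (mem_insert_self _ _)
    have hs0 : 0 ≤ s j := hs j (mem_insert_self _ _)
    have h20 := h2 j (mem_insert_self _ _)
    have hj1 := hI1 j (mem_insert_self _ _)
    have hU1 : ∀ p ∈ U, 1 ≤ p := by
      intro p hp
      obtain ⟨k, hk, hpk⟩ := mem_biUnion.1 hp
      exact hI1 k (mem_insert_of_mem hk) p hpk
    set P : (ℕ → ℝ) → ℝ := fun ω => ∏ k ∈ J, (1 + Y k ω) - 1 with hP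
    have hPdep : DepOn U P := by
      intro ω ω' h
      simp only [hP]
      congr 1
      refine Finset.prod_congr rfl fun k hk => ?_
      rw [hY k (mem_insert_of_mem hk) ω ω' fun p hp => h p (mem_biUnion.2 ⟨k, hk, hp⟩)]
    set T : ℝ := ∏ k ∈ J, (1 + s k) - 1 with hT
    have hT0 : 0 ≤ T := by
      have : (1 : ℝ) ≤ ∏ k ∈ J, (1 + s k) := by
        have := Finset.prod_le_prod (s := J) (f := fun _ => (1 : ℝ)) (g := fun k => 1 + s k)
          (fun _ _ => by norm_num) (fun k hk => by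
            have := hs k (mem_insert_of_mem hk)
            linarith)
        simpa using this
      linarith
    rw [Finset.biUnion_insert, ← hU, Finset.prod_insert hj]
    have e1 : (fun ω => (∏ k ∈ insert j J, (1 + Y k ω) - 1) ^ 2) =
        fun ω => ((1 + Y j ω) ^ 2 * P ω ^ 2 + 2 * ((Y j ω + Y j ω ^ 2) * P ω)) +
          Y j ω ^ 2 * (fun _ => (1 : ℝ)) ω := by
      funext ω
      rw [Finset.prod_insert hj]
      simp only [hP]
      ring
    have hPsq : DepOn U (fun ω => P ω ^ 2) := fun ω ω' h => by simp only [hPdep ω ω' h]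
    have hd1 : DepOn (I j) (fun ω => (1 + Y j ω) ^ 2) := fun ω ω' h => by
      simp only [hY0 ω ω' h]
    have hd2 : DepOn (I j) (fun ω => Y j ω + Y j ω ^ 2) := fun ω ω' h => by
      simp only [hY0 ω ω' h]
    have hd3 : DepOn (I j) (fun ω => Y j ω ^ 2) := fun ω ω' h => by
      simp only [hY0 ω ω' h]
    rw [e1, EE_add, EE_add, EE_mul_left, EE_union hdis hd1 hPsq, EE_union hdis hd2 hPdep,
      EE_union hdis hd3 (G := fun _ => (1 : ℝ)) (fun _ _ _ => rfl), EE_const]
    have hE1 := EE_sq_le hj1 (Y j)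
    have hEP := EE_sq_le hU1 P
    have hEY : |EE (I j) (Y j)| ≤ s j := by
      rw [← Real.sqrt_sq_eq_abs, ← Real.sqrt_sq hs0]
      exact Real.sqrt_le_sqrt (hE1.trans h20)
    have hEPa : |EE U P| ≤ T := by
      rw [← Real.sqrt_sq_eq_abs, ← Real.sqrt_sq hT0]
      exact Real.sqrt_le_sqrt (hEP.trans ih')
    have hY2 : 0 ≤ EE (I j) (fun ω => Y j ω ^ 2) := EE_nonneg hj1 fun ω _ => sq_nonneg _
    have hP2 : 0 ≤ EE U (fun ω => P ω ^ 2) := EE_nonneg hU1 fun ω _ => sq_nonneg _
    have f1 : EE (I j) (fun ω => (1 + Y j ω) ^ 2) ≤ (1 + s j) ^ 2 := by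
      have e2 : (fun ω => (1 + Y j ω) ^ 2) = fun ω => ((1 : ℝ) + 2 * Y j ω) + Y j ω ^ 2 := by
        funext ω
        ring
      rw [e2, EE_add, EE_add, EE_const, EE_mul_left]
      have := le_abs_self (EE (I j) (Y j))
      nlinarith
    have f10 : 0 ≤ EE (I j) (fun ω => (1 + Y j ω) ^ 2) := EE_nonneg hj1 fun ω _ => sq_nonneg _
    have f2 : |EE (I j) (fun ω => Y j ω + Y j ω ^ 2)| ≤ s j + s j ^ 2 := by
      rw [EE_add]
      refine (abs_add_le _ _).trans ?_
      rw [abs_of_nonneg hY2]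
      linarith
    have f3 : EE (I j) (fun ω => Y j ω + Y j ω ^ 2) * EE U P ≤ (s j + s j ^ 2) * T := by
      refine (le_abs_self _).trans ?_
      rw [abs_mul]
      exact mul_le_mul f2 hEPa (abs_nonneg _) (by positivity)
    have f4 : EE (I j) (fun ω => (1 + Y j ω) ^ 2) * EE U (fun ω => P ω ^ 2) ≤
        (1 + s j) ^ 2 * T ^ 2 := mul_le_mul f1 ih' hP2 (by positivity)
    have e3 : (1 + s j) * ∏ k ∈ J, (1 + s k) - 1 = T * (1 + s j) + s j := by
      rw [hT]
      ring
    rw [e3]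
    nlinarith

/-- the truncation errors of all blocks -/
lemma sum_trunc : ∃ C c : ℝ, 1 ≤ C ∧ 0 < c ∧ ∀ (K : ℝ) (J : Finset ℕ), 1 ≤ K →
    ∑ k ∈ J, (Real.exp (-(K / 8000 * Real.exp (-((k + 1 : ℕ) : ℝ)))) / 3) ^ lk k ≤
      C * Real.exp (-c * √K) := by
  refine ⟨5, 1 / 105, by norm_num, by norm_num, fun K J hK => ?_⟩
  have hterm : ∀ k : ℕ, (Real.exp (-(K / 8000 * Real.exp (-((k + 1 : ℕ) : ℝ)))) / 3) ^ lk k ≤
      Real.exp (-(1 / 105) * √K) * (4 / 5) ^ k := by
    intro k
    set x : ℝ := Real.exp ((k : ℝ) / 2) with hx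
    have hx0 : 0 < x := Real.exp_pos _
    set a : ℝ := K / 8000 * Real.exp (-((k + 1 : ℕ) : ℝ)) with ha
    have ha0 : 0 ≤ a := by positivity
    have hl1 : x ≤ lk k := by
      unfold lk
      exact Nat.le_ceil _
    have hl2 := lk_ge k
    have h3 : Real.exp (-a) / 3 ≤ Real.exp (-(a + 1)) := by
      have h4 : (1 : ℝ) / 3 ≤ Real.exp (-1) := by
        rw [Real.exp_neg, one_div]
        apply inv_anti₀ (Real.exp_pos _)
        have := Real.exp_one_lt_d9
        linarith
      calc Real.exp (-a) / 3 = Real.exp (-a) * (1 / 3) := by ring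
        _ ≤ Real.exp (-a) * Real.exp (-1) := by gcongr
        _ = _ := by rw [← Real.exp_add]; congr 1; ring
    have h5 : x * a + x / 2 ≥ 1 / 105 * √K := by
      have e1 : x * a = K / (8000 * Real.exp 1 * x) := by
        have e2 : Real.exp (-((k + 1 : ℕ) : ℝ)) = 1 / (Real.exp 1 * (x * x)) := by
          rw [hx, ← Real.exp_add, ← Real.exp_add, one_div, ← Real.exp_neg]
          congr 1
          push_cast
          ring
        rw [ha, e2]
        field_simp
      rw [e1]
      have h6 : K / (22050 * x) ≤ K / (8000 * Real.exp 1 * x) := by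
        have := Real.exp_one_lt_d9
        have h7 : 8000 * Real.exp 1 ≤ 22050 := by linarith
        gcongr
      have hsK : √K * √K = K := Real.mul_self_sqrt (by linarith)
      have h8 : 1 / 105 * √K ≤ K / (22050 * x) + x / 2 := by
        have e3 : K / (22050 * x) + x / 2 - 1 / 105 * √K = (x - √K / 105) ^ 2 / (2 * x) := by
          obtain ⟨r, hr0, hr⟩ : ∃ r, √K = r ∧ K = r * r := ⟨√K, rfl, hsK.symm⟩
          rw [hr0, hr]
          field_simp
          ring
        have : 0 ≤ (x - √K / 105) ^ 2 / (2 * x) := by positivity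
        linarith
      linarith
    calc (Real.exp (-a) / 3) ^ lk k ≤ Real.exp (-(a + 1)) ^ lk k := by gcongr
      _ = Real.exp (-((lk k : ℝ) * (a + 1))) := by
          rw [← Real.exp_nat_mul]
          congr 1
          ring
      _ ≤ Real.exp (-(1 / 105) * √K + (-(1 / 4)) * k) := by
          apply Real.exp_le_exp.2
          have h9 : x * a ≤ lk k * a := by gcongr
          nlinarith
      _ = Real.exp (-(1 / 105) * √K) * Real.exp (-(1 / 4)) ^ k := by
          rw [Real.exp_add, ← Real.exp_nat_mul]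
          congr 2
          ring
      _ ≤ Real.exp (-(1 / 105) * √K) * (4 / 5) ^ k := by
          have h10 : Real.exp (-(1 / 4 : ℝ)) ≤ 4 / 5 := by
            have := Real.add_one_le_exp (1 / 4 : ℝ)
            rw [Real.exp_neg, inv_le_comm₀ (Real.exp_pos _) (by norm_num)]
            linarith
          gcongr
  calc ∑ k ∈ J, (Real.exp (-(K / 8000 * Real.exp (-((k + 1 : ℕ) : ℝ)))) / 3) ^ lk k ≤
      ∑ k ∈ J, Real.exp (-(1 / 105) * √K) * (4 / 5) ^ k := Finset.sum_le_sum fun k _ => hterm k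
    _ = Real.exp (-(1 / 105) * √K) * ∑ k ∈ J, (4 / 5 : ℝ) ^ k := by rw [Finset.mul_sum]
    _ ≤ Real.exp (-(1 / 105) * √K) * (1 - 4 / 5)⁻¹ := by
        gcongr
        rw [← tsum_geometric_of_lt_one (by norm_num) (by norm_num)]
        exact Summable.sum_le_tsum _ (fun _ _ => by positivity)
          (summable_geometric_of_lt_one (by norm_num) (by norm_num))
    _ = 5 * Real.exp (-(1 / 105) * √K) := by norm_num; ring

end P004.H128
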